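import Mathlib

namespace Vale.Agent.Results.P045.FewEdges

open Finset

theorem pairing {V : Type} [DecidableEq V] : ∀ (m : ℕ) (E : Finset (Finset V)), E.card = m →
    (∀ e ∈ E, ∀ e' ∈ E, (e ∩ e').Nonempty) →
    ∃ C : Finset V, 2 * C.card ≤ E.card + 1 ∧ ∀ e ∈ E, (e ∩ C).Nonempty := by
  intro m
  induction m using Nat.strong_induction_on with
  | _ m ih =>
    intro E hm hint
    rcases Nat.lt_or_ge E.card 2 with hlt | hge
    · rcases Finset.eq_empty_or_nonempty E with h0 | ⟨e, he⟩
      · exact ⟨∅, by simp, by simp [h0]⟩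
      · obtain ⟨v, hv⟩ := hint e he e he
        have hE : E = {e} := by
          have h1 : E.card = 1 := by
            have : 0 < E.card := Finset.card_pos.mpr ⟨e, he⟩
            omega
          obtain ⟨a, ha⟩ := Finset.card_eq_one.mp h1
          rw [ha] at he ⊢
          rw [Finset.mem_singleton.mp he]
        refine ⟨{v}, by simp [hE], ?_⟩
        intro e' he'
        rw [hE, Finset.mem_singleton] at he'
        subst he'
        exact ⟨v, by simp at hv ⊢; exact hv⟩
    · obtain ⟨e1, he1, e2, he2, hne⟩ := Finset.one_lt_card.mp (by omega : 1 < E.card)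
      obtain ⟨v, hv⟩ := hint e1 he1 e2 he2
      have hc : ((E.erase e1).erase e2).card = E.card - 2 := by
        rw [Finset.card_erase_of_mem (Finset.mem_erase.mpr ⟨hne.symm, he2⟩),
          Finset.card_erase_of_mem he1]
        omega
      obtain ⟨C, hC1, hC2⟩ := ih (E.card - 2) (by omega) ((E.erase e1).erase e2) hc
        (fun e he e' he' => hint e (Finset.mem_of_mem_erase (Finset.mem_of_mem_erase he))
          e' (Finset.mem_of_mem_erase (Finset.mem_of_mem_erase he')))
      refine ⟨insert v C, ?_, ?_⟩
      · have := Finset.card_insert_le v C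
        omega
      · intro e he
        rw [Finset.mem_inter] at hv
        by_cases h1 : e = e1
        · exact ⟨v, by rw [h1]; simp [hv.1]⟩
        · by_cases h2 : e = e2
          · exact ⟨v, by rw [h2]; simp [hv.2]⟩
          · obtain ⟨x, hx⟩ := hC2 e (Finset.mem_erase.mpr ⟨h2, Finset.mem_erase.mpr ⟨h1, he⟩⟩)
            rw [Finset.mem_inter] at hx
            exact ⟨x, by simp [hx.1, hx.2]⟩

/-- A hypergraph is a finite set `E` of edges (finite vertex sets); it is intersecting when any two
edges (also an edge with itself, so edges are nonempty) share a vertex; a cover is a vertex set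
meeting every edge.

* (1) every intersecting hypergraph with `m` edges has a cover of at most `(m + 1) / 2` vertices;
* (2) hence an intersecting hypergraph with at most `2 r - 2` edges has a cover of at most `r - 1`
  vertices. -/
theorem result :
    (∀ (V : Type) [DecidableEq V] (E : Finset (Finset V)),
      (∀ e ∈ E, ∀ e' ∈ E, (e ∩ e').Nonempty) →
      ∃ C : Finset V, 2 * C.card ≤ E.card + 1 ∧ ∀ e ∈ E, (e ∩ C).Nonempty) ∧
    (∀ (V : Type) [DecidableEq V] (E : Finset (Finset V)) (r : ℕ), 1 ≤ r →
      (∀ e ∈ E, ∀ e' ∈ E, (e ∩ e').Nonempty) → E.card ≤ 2 * r - 2 →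
      ∃ C : Finset V, C.card ≤ r - 1 ∧ ∀ e ∈ E, (e ∩ C).Nonempty) := by
  refine ⟨fun V _ E h => pairing E.card E rfl h, fun V _ E r hr h hc => ?_⟩
  obtain ⟨C, h1, h2⟩ := pairing E.card E rfl h
  exact ⟨C, by omega, h2⟩

end Vale.Agent.Results.P045.FewEdges
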