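import Mathlib

namespace Vale.Agent.Results.P045.FewEdgesGeneral

open Finset

theorem pairing {V : Type} [DecidableEq V] (ν : ℕ) : ∀ (m : ℕ) (E : Finset (Finset V)), E.card = m →
    (∀ e ∈ E, e.Nonempty) →
    (∀ M ⊆ E, (∀ e ∈ M, ∀ e' ∈ M, e ≠ e' → Disjoint e e') → M.card ≤ ν) →
    ∃ C : Finset V, 2 * C.card ≤ E.card + ν ∧ ∀ e ∈ E, (e ∩ C).Nonempty := by
  intro m
  induction m using Nat.strong_induction_on with
  | _ m ih =>
    intro E hm hne hmatch
    by_cases h : ∃ e1 ∈ E, ∃ e2 ∈ E, e1 ≠ e2 ∧ (e1 ∩ e2).Nonempty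
    · obtain ⟨e1, he1, e2, he2, hne12, v, hv⟩ := h
      have hc : ((E.erase e1).erase e2).card = E.card - 2 := by
        rw [Finset.card_erase_of_mem (Finset.mem_erase.mpr ⟨hne12.symm, he2⟩),
          Finset.card_erase_of_mem he1]
        omega
      have h2 : 2 ≤ E.card := by
        have := Finset.one_lt_card.mpr ⟨e1, he1, e2, he2, hne12⟩
        omega
      have hsub : (E.erase e1).erase e2 ⊆ E :=
        (Finset.erase_subset _ _).trans (Finset.erase_subset _ _)
      obtain ⟨C, hC1, hC2⟩ := ih (E.card - 2) (by omega) ((E.erase e1).erase e2) hc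
        (fun e he => hne e (hsub he)) (fun M hM hd => hmatch M (hM.trans hsub) hd)
      refine ⟨insert v C, ?_, ?_⟩
      · have := Finset.card_insert_le v C
        omega
      · intro e he
        rw [Finset.mem_inter] at hv
        by_cases h1 : e = e1
        · exact ⟨v, by rw [h1]; simp [hv.1]⟩
        · by_cases h2' : e = e2
          · exact ⟨v, by rw [h2']; simp [hv.2]⟩
          · obtain ⟨x, hx⟩ := hC2 e (Finset.mem_erase.mpr ⟨h2', Finset.mem_erase.mpr ⟨h1, he⟩⟩)
            rw [Finset.mem_inter] at hx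
            exact ⟨x, by simp [hx.1, hx.2]⟩
    · push Not at h
      have hcard : E.card ≤ ν := by
        apply hmatch E (Finset.Subset.refl _)
        intro e he e' he' hee
        rw [Finset.disjoint_iff_inter_eq_empty]
        exact h e he e' he' hee
      choose g hg using (fun e : {e // e ∈ E} => hne e.1 e.2)
      refine ⟨E.attach.image g, ?_, ?_⟩
      · have : (E.attach.image g).card ≤ E.card := by
          have := Finset.card_image_le (s := E.attach) (f := g)
          simpa using this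
        omega
      · intro e he
        refine ⟨g ⟨e, he⟩, ?_⟩
        rw [Finset.mem_inter]
        exact ⟨hg ⟨e, he⟩, Finset.mem_image.mpr ⟨⟨e, he⟩, Finset.mem_attach _ _, rfl⟩⟩

/-- A hypergraph is a finite set `E` of nonempty edges (finite vertex sets); `ν` bounds the size of
every subfamily of pairwise disjoint edges; a cover is a vertex set meeting every edge.

* (1) there is a cover `C` with `2 |C| ≤ |E| + ν`;
* (2) hence if `|E| ≤ (2 r - 3) ν` there is a cover of at most `(r - 1) ν` vertices. -/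
theorem result :
    (∀ (V : Type) [DecidableEq V] (E : Finset (Finset V)) (ν : ℕ),
      (∀ e ∈ E, e.Nonempty) →
      (∀ M ⊆ E, (∀ e ∈ M, ∀ e' ∈ M, e ≠ e' → Disjoint e e') → M.card ≤ ν) →
      ∃ C : Finset V, 2 * C.card ≤ E.card + ν ∧ ∀ e ∈ E, (e ∩ C).Nonempty) ∧
    (∀ (V : Type) [DecidableEq V] (E : Finset (Finset V)) (ν r : ℕ), 2 ≤ r →
      (∀ e ∈ E, e.Nonempty) →
      (∀ M ⊆ E, (∀ e ∈ M, ∀ e' ∈ M, e ≠ e' → Disjoint e e') → M.card ≤ ν) →
      E.card ≤ (2 * r - 3) * ν →
      ∃ C : Finset V, C.card ≤ (r - 1) * ν ∧ ∀ e ∈ E, (e ∩ C).Nonempty) := by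
  refine ⟨fun V _ E ν h1 h2 => pairing ν E.card E rfl h1 h2, fun V _ E ν r hr h1 h2 hc => ?_⟩
  obtain ⟨C, hC1, hC2⟩ := pairing ν E.card E rfl h1 h2
  refine ⟨C, ?_, hC2⟩
  obtain ⟨s, rfl⟩ : ∃ s, r = s + 2 := ⟨r - 2, by omega⟩
  have e1 : 2 * (s + 2) - 3 = 2 * s + 1 := by omega
  have e2 : s + 2 - 1 = s + 1 := by omega
  rw [e1] at hc
  rw [e2]
  nlinarith

end Vale.Agent.Results.P045.FewEdgesGeneral
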